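import Mathlib

/-!
A point of the edge at which ALL windows are at the same level: sliding averages and the
intermediate value theorem.
-/

open Set Filter Topology MeasureTheory

namespace Vale.Agent.P097.H484

noncomputable section

/-- the mean of `f` over the window `[y - S, y + S]` -/
def avg (f : ℝ → ℝ) (y S : ℝ) : ℝ := (1 / (2 * S)) * ∫ t in (y - S)..(y + S), f t

variable {f : ℝ → ℝ}

theorem continuous_avg (hf : ∀ a b, IntervalIntegrable f volume a b) (S : ℝ) :
    Continuous fun y => avg f y S := by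
  have h : ∀ y, ∫ t in (y - S)..(y + S), f t
      = (∫ t in (0 : ℝ)..(y + S), f t) - ∫ t in (0 : ℝ)..(y - S), f t := fun y =>
    (intervalIntegral.integral_interval_sub_left (hf _ _) (hf _ _)).symm
  have hc : Continuous fun x : ℝ => ∫ t in (0 : ℝ)..x, f t :=
    intervalIntegral.continuous_primitive hf 0
  simp only [avg, h]
  exact continuous_const.mul ((hc.comp (by fun_prop)).sub (hc.comp (by fun_prop)))

theorem avg_half (hf : ∀ a b, IntervalIntegrable f volume a b) (y S : ℝ) :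
    avg f y S = (avg f (y - S / 2) (S / 2) + avg f (y + S / 2) (S / 2)) / 2 := by
  have h1 : (∫ t in (y - S)..y, f t) + ∫ t in y..(y + S), f t = ∫ t in (y - S)..(y + S), f t :=
    intervalIntegral.integral_add_adjacent_intervals (hf _ _) (hf _ _)
  have e1 : y - S / 2 - S / 2 = y - S := by ring
  have e2 : y - S / 2 + S / 2 = y := by ring
  have e3 : y + S / 2 - S / 2 = y := by ring
  have e4 : y + S / 2 + S / 2 = y + S := by ring
  simp only [avg]
  rw [e1, e2, e3, e4, ← h1]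
  ring

theorem step (hf : ∀ a b, IntervalIntegrable f volume a b) {y S v : ℝ} (hS : 0 < S)
    (h : avg f y S = v) : ∃ y', |y' - y| ≤ S / 2 ∧ avg f y' (S / 2) = v := by
  have h1 := avg_half hf y S
  rw [h] at h1
  have hv : v ∈ uIcc (avg f (y - S / 2) (S / 2)) (avg f (y + S / 2) (S / 2)) := by
    rw [mem_uIcc]
    rcases le_total (avg f (y - S / 2) (S / 2)) (avg f (y + S / 2) (S / 2)) with h2 | h2
    · left; constructor <;> linarith
    · right; constructor <;> linarith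
  obtain ⟨z, hz, e⟩ := intermediate_value_uIcc (continuous_avg hf (S / 2)).continuousOn hv
  refine ⟨z, ?_, e⟩
  rw [uIcc_of_le (by linarith)] at hz
  rw [abs_le]
  constructor <;> linarith [hz.1, hz.2]

/-- **The point.** -/
theorem exists_ye (hf : ∀ a b, IntervalIntegrable f volume a b) {y₀ S₀ v : ℝ} (hS : 0 < S₀)
    (h : avg f y₀ S₀ = v) : ∃ (ye : ℝ) (y : ℕ → ℝ), y 0 = y₀ ∧ |ye - y₀| ≤ S₀ ∧
      ∀ k, avg f (y k) (S₀ / 2 ^ k) = v ∧ |ye - y k| ≤ S₀ / 2 ^ k := by
  have hstep : ∀ k : ℕ, ∀ z : {z : ℝ // avg f z (S₀ / 2 ^ k) = v},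
      ∃ z' : {z : ℝ // avg f z (S₀ / 2 ^ (k + 1)) = v}, |(z' : ℝ) - z| ≤ S₀ / 2 / 2 ^ k := by
    intro k z
    obtain ⟨z', h1, h2⟩ := step hf (by positivity : (0 : ℝ) < S₀ / 2 ^ k) z.2
    have e : S₀ / 2 ^ k / 2 = S₀ / 2 ^ (k + 1) := by rw [pow_succ]; field_simp
    have e' : S₀ / 2 ^ k / 2 = S₀ / 2 / 2 ^ k := by field_simp
    rw [e] at h2
    rw [e'] at h1
    exact ⟨⟨z', h2⟩, h1⟩
  choose nx hnx using hstep
  let Y : (k : ℕ) → {z : ℝ // avg f z (S₀ / 2 ^ k) = v} := fun k =>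
    Nat.rec (motive := fun k => {z : ℝ // avg f z (S₀ / 2 ^ k) = v}) ⟨y₀, by simpa using h⟩
      (fun k z => nx k z) k
  have hY : ∀ k : ℕ, dist (Y k).1 (Y (k + 1)).1 ≤ S₀ / 2 / 2 ^ k := fun k => by
    rw [dist_comm, Real.dist_eq]; exact hnx k (Y k)
  have hc : CauchySeq fun k => (Y k).1 := cauchySeq_of_le_geometric_two hY
  obtain ⟨ye, hye⟩ := cauchySeq_tendsto_of_complete hc
  have hd : ∀ k, |ye - (Y k).1| ≤ S₀ / 2 ^ k := fun k => by
    have := dist_le_of_le_geometric_two_of_tendsto hY hye k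
    rwa [dist_comm, Real.dist_eq] at this
  have h0 : (Y 0).1 = y₀ := rfl
  refine ⟨ye, fun k => (Y k).1, rfl, ?_, fun k => ⟨(Y k).2, hd k⟩⟩
  have := hd 0
  rw [h0] at this
  simpa using this

end

end Vale.Agent.P097.H484
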